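import Vale.Agent.H88.CT.Abstract
import Vale.Agent.H88.CT.Defs

/-!
Connectivity of classes of contingency tables by unit switches: a function on a class that is
invariant under all `2 x 2` block resamplings of a row pair is invariant under resampling the row
pair; a function invariant under all row-pair resamplings is constant; and the same inside a
`2 x 3` block.
-/

namespace Vale.Agent.H69.CT

open Finset Vale.Agent.H90 Vale.Agent.H88.CT

variable {m n : ℕ} {r : Fin m → ℕ} {c : Fin n → ℕ}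

/-- The unit switch on entries: subtract one at `(i,a)` and `(j,b)`, add one at `(i,b)` and
`(j,a)`. -/
def swFun (X : Fin m → Fin n → ℕ) (i j : Fin m) (a b : Fin n) : Fin m → Fin n → ℕ :=
  fun k l =>
    if k = i ∧ l = a then X k l - 1
    else if k = j ∧ l = b then X k l - 1
    else if k = i ∧ l = b then X k l + 1
    else if k = j ∧ l = a then X k l + 1
    else X k l

theorem swFun_add (X : Fin m → Fin n → ℕ) (i j : Fin m) (a b : Fin n) (hij : i ≠ j)
    (hab : a ≠ b) (h1 : 1 ≤ X i a) (h2 : 1 ≤ X j b) (k : Fin m) (l : Fin n) :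
    swFun X i j a b k l
        + ((if k = i ∧ l = a then 1 else 0) + (if k = j ∧ l = b then 1 else 0))
      = X k l + ((if k = i ∧ l = b then 1 else 0) + (if k = j ∧ l = a then 1 else 0)) := by
  unfold swFun
  have hji : j ≠ i := fun h => hij h.symm
  have hba : b ≠ a := fun h => hab h.symm
  by_cases hki : k = i <;> by_cases hkj : k = j <;> by_cases hla : l = a <;>
    by_cases hlb : l = b
  all_goals first
    | exact absurd (hki.symm.trans hkj) hij
    | exact absurd (hla.symm.trans hlb) hab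
    | (subst_vars; simp [hij, hji, hab, hba] <;> omega)
    | simp [hki, hkj, hla, hlb, hij, hji, hab, hba]

theorem swFun_of_not (X : Fin m → Fin n → ℕ) (i j : Fin m) (a b : Fin n) (k : Fin m)
    (l : Fin n) (h : ¬ ((k = i ∨ k = j) ∧ (l = a ∨ l = b))) : swFun X i j a b k l = X k l := by
  unfold swFun
  have e1 : ¬ (k = i ∧ l = a) := fun hh => h ⟨Or.inl hh.1, Or.inl hh.2⟩
  have e2 : ¬ (k = j ∧ l = b) := fun hh => h ⟨Or.inr hh.1, Or.inr hh.2⟩
  have e3 : ¬ (k = i ∧ l = b) := fun hh => h ⟨Or.inl hh.1, Or.inr hh.2⟩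
  have e4 : ¬ (k = j ∧ l = a) := fun hh => h ⟨Or.inr hh.1, Or.inl hh.2⟩
  rw [if_neg e1, if_neg e2, if_neg e3, if_neg e4]

theorem ind_row (k i : Fin m) (a : Fin n) :
    ∑ l : Fin n, (if k = i ∧ l = a then 1 else 0 : ℕ) = if k = i then 1 else 0 := by
  by_cases hk : k = i <;> simp [hk]

theorem ind_col (l a : Fin n) (i : Fin m) :
    ∑ k : Fin m, (if k = i ∧ l = a then 1 else 0 : ℕ) = if l = a then 1 else 0 := by
  by_cases hl : l = a <;> simp [hl]

theorem ind_sum (i : Fin m) (a : Fin n) :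
    ∑ k : Fin m, ∑ l : Fin n, (if k = i ∧ l = a then 1 else 0 : ℕ) = 1 := by
  rw [Finset.sum_congr rfl (fun k _ => ind_row k i a)]
  simp

/-- The unit switch as a map of the class. -/
def sw (X : Omega r c) (i j : Fin m) (a b : Fin n) (hij : i ≠ j) (hab : a ≠ b)
    (h1 : 1 ≤ X.1 i a) (h2 : 1 ≤ X.1 j b) : Omega r c :=
  ⟨swFun X.1 i j a b, by
    constructor
    · intro k
      have h := Finset.sum_congr (s₁ := (Finset.univ : Finset (Fin n))) rfl
        (fun l _ => swFun_add X.1 i j a b hij hab h1 h2 k l)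
      simp only [Finset.sum_add_distrib, ind_row] at h
      rw [← X.2.1 k]
      omega
    · intro l
      have h := Finset.sum_congr (s₁ := (Finset.univ : Finset (Fin m))) rfl
        (fun k _ => swFun_add X.1 i j a b hij hab h1 h2 k l)
      simp only [Finset.sum_add_distrib, ind_col] at h
      rw [← X.2.2 l]
      omega⟩

theorem sw_of_not (X : Omega r c) (i j : Fin m) (a b : Fin n) (hij : i ≠ j) (hab : a ≠ b)
    (h1 : 1 ≤ X.1 i a) (h2 : 1 ≤ X.1 j b) (k : Fin m) (l : Fin n)
    (h : ¬ ((k = i ∨ k = j) ∧ (l = a ∨ l = b))) :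
    (sw X i j a b hij hab h1 h2).1 k l = X.1 k l :=
  swFun_of_not X.1 i j a b k l h

/-- Distance of two natural numbers. -/
def dd (x y : ℕ) : ℕ := (x - y) + (y - x)

/-- The `L1` distance of two tables. -/
def D (X Y : Omega r c) : ℕ :=
  ∑ k : Fin m, ∑ l : Fin n, dd (X.1 k l) (Y.1 k l)

theorem sw_D_lt (X Y : Omega r c) (i j : Fin m) (a b : Fin n) (hij : i ≠ j) (hab : a ≠ b)
    (h1 : 1 ≤ X.1 i a) (h2 : 1 ≤ X.1 j b)
    (ha : Y.1 i a < X.1 i a) (hb : X.1 j a < Y.1 j a) (hc : Y.1 j b < X.1 j b) :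
    D (sw X i j a b hij hab h1 h2) Y < D X Y := by
  have hji : j ≠ i := fun h => hij h.symm
  have hba : b ≠ a := fun h => hab h.symm
  have key : ∀ k l,
      dd ((sw X i j a b hij hab h1 h2).1 k l) (Y.1 k l)
        + ((if k = i ∧ l = a then 1 else 0) + (if k = j ∧ l = a then 1 else 0)
            + (if k = j ∧ l = b then 1 else 0))
      ≤ dd (X.1 k l) (Y.1 k l) + (if k = i ∧ l = b then 1 else 0) := by
    intro k l
    show dd (swFun X.1 i j a b k l) (Y.1 k l)
        + ((if k = i ∧ l = a then 1 else 0) + (if k = j ∧ l = a then 1 else 0)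
            + (if k = j ∧ l = b then 1 else 0))
      ≤ dd (X.1 k l) (Y.1 k l) + (if k = i ∧ l = b then 1 else 0)
    unfold swFun dd
    by_cases hki : k = i <;> by_cases hkj : k = j <;> by_cases hla : l = a <;>
      by_cases hlb : l = b
    all_goals first
      | exact absurd (hki.symm.trans hkj) hij
      | exact absurd (hla.symm.trans hlb) hab
      | (subst_vars; simp [hij, hji, hab, hba] <;> omega)
      | simp [hki, hkj, hla, hlb, hij, hji, hab, hba]
  have hsum := Finset.sum_le_sum (s := (Finset.univ : Finset (Fin m)))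
    (fun k _ => Finset.sum_le_sum (s := (Finset.univ : Finset (Fin n))) (fun l _ => key k l))
  simp only [Finset.sum_add_distrib, ind_sum] at hsum
  unfold D
  omega

theorem exists_lt_of_sum_eq {ι : Type*} [Fintype ι] (u v : ι → ℕ)
    (hs : ∑ l, u l = ∑ l, v l) (a : ι) (h : u a < v a) : ∃ b, v b < u b := by
  by_contra hcon
  push Not at hcon
  have := Finset.sum_lt_sum (s := (Finset.univ : Finset ι)) (fun l _ => hcon l)
    ⟨a, Finset.mem_univ a, h⟩
  omega

theorem exists_gt_of_ne (X Y : Omega r c) (hXY : X ≠ Y) : ∃ k l, Y.1 k l < X.1 k l := by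
  have h : ∃ k l, X.1 k l ≠ Y.1 k l := by
    by_contra hcon
    push Not at hcon
    exact hXY (Subtype.ext (funext fun k => funext fun l => hcon k l))
  obtain ⟨k, l, hkl⟩ := h
  rcases Nat.lt_or_gt_of_ne hkl with hlt | hgt
  · obtain ⟨l', hl'⟩ := exists_lt_of_sum_eq (fun l => X.1 k l) (fun l => Y.1 k l)
      (by rw [X.2.1 k, Y.2.1 k]) l hlt
    exact ⟨k, l', hl'⟩
  · exact ⟨k, l, hgt⟩

/-- One step towards `Y`. -/
theorem exists_step (X Y : Omega r c) (hXY : X ≠ Y) :
    ∃ (i j : Fin m) (a b : Fin n) (hij : i ≠ j) (hab : a ≠ b) (h1 : 1 ≤ X.1 i a)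
      (h2 : 1 ≤ X.1 j b), Y.1 i a < X.1 i a ∧ X.1 j a < Y.1 j a ∧ Y.1 j b < X.1 j b ∧
        D (sw X i j a b hij hab h1 h2) Y < D X Y := by
  obtain ⟨i, a, ha⟩ := exists_gt_of_ne X Y hXY
  obtain ⟨j, hb⟩ := exists_lt_of_sum_eq (fun k => Y.1 k a) (fun k => X.1 k a)
    (by rw [X.2.2 a, Y.2.2 a]) i ha
  obtain ⟨b, hc⟩ := exists_lt_of_sum_eq (fun l => X.1 j l) (fun l => Y.1 j l)
    (by rw [X.2.1 j, Y.2.1 j]) a hb
  have hij : i ≠ j := by
    rintro rfl
    exact absurd ha (Nat.not_lt.mpr hb.le)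
  have hab : a ≠ b := by
    rintro rfl
    exact absurd hc (Nat.not_lt.mpr hb.le)
  have h1 : 1 ≤ X.1 i a := by omega
  have h2 : 1 ≤ X.1 j b := by omega
  exact ⟨i, j, a, b, hij, hab, h1, h2, ha, hb, hc, sw_D_lt X Y i j a b hij hab h1 h2 ha hb hc⟩

theorem block_inv_rowRel {α : Type*} {m n : ℕ} {r : Fin m → ℕ} {c : Fin n → ℕ}
    (i j : Fin m) (hij : i ≠ j) (f : Omega r c → α)
    (hf : ∀ a b, a ≠ b → ∀ X Y, BlockRel i j a b X Y → f X = f Y) :
    ∀ X Y, RowRel i j X Y → f X = f Y := by
  intro X Y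
  induction' hN : D X Y using Nat.strong_induction_on with N ih generalizing X
  intro hR
  by_cases hXY : X = Y
  · rw [hXY]
  · obtain ⟨i', j', a, b, hij', hab, h1, h2, ha, hb, hc, hlt⟩ := exists_step X Y hXY
    have hi' : i' = i ∨ i' = j := by
      by_contra hcon
      push Not at hcon
      have := congrFun (hR i' hcon.1 hcon.2) a
      omega
    have hj' : j' = i ∨ j' = j := by
      by_contra hcon
      push Not at hcon
      have := congrFun (hR j' hcon.1 hcon.2) a
      omega
    have hrow : ∀ k, (k = i' ∨ k = j') → (k = i ∨ k = j) := by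
      rintro k (rfl | rfl)
      · exact hi'
      · exact hj'
    set Z := sw X i' j' a b hij' hab h1 h2 with hZ
    have hXZ : BlockRel i j a b X Z := by
      intro k l hnot
      exact (sw_of_not X i' j' a b hij' hab h1 h2 k l
        (fun hh => hnot ⟨hrow k hh.1, hh.2⟩)).symm
    have hZY : RowRel i j Z Y := by
      intro k hki hkj
      funext l
      rw [← hR k hki hkj]
      exact sw_of_not X i' j' a b hij' hab h1 h2 k l
        (fun hh => by rcases hrow k hh.1 with h | h <;> contradiction)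
    rw [hf a b hab X Z hXZ]
    exact ih (D Z Y) (by rw [← hN]; exact hlt) Z rfl hZY

theorem rowRel_inv_const {α : Type*} {m n : ℕ} {r : Fin m → ℕ} {c : Fin n → ℕ}
    (f : Omega r c → α) (hf : ∀ i j, i ≠ j → ∀ X Y, RowRel i j X Y → f X = f Y) :
    ∀ X Y : Omega r c, f X = f Y := by
  intro X Y
  induction' hN : D X Y using Nat.strong_induction_on with N ih generalizing X
  by_cases hXY : X = Y
  · rw [hXY]
  · obtain ⟨i, j, a, b, hij, hab, h1, h2, ha, hb, hc, hlt⟩ := exists_step X Y hXY
    set Z := sw X i j a b hij hab h1 h2 with hZ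
    have hXZ : RowRel i j X Z := by
      intro k hki hkj
      funext l
      exact (sw_of_not X i j a b hij hab h1 h2 k l
        (fun hh => by rcases hh.1 with h | h <;> contradiction)).symm
    rw [hf i j hij X Z hXZ]
    exact ih (D Z Y) (by rw [← hN]; exact hlt) Z rfl

theorem block_inv_block3 {α : Type*} {m n : ℕ} {r : Fin m → ℕ} {c : Fin n → ℕ}
    (i j : Fin m) (hij : i ≠ j) (a b d : Fin n) (hab : a ≠ b) (hbd : b ≠ d) (had : a ≠ d)
    (f : Omega r c → α)
    (h1 : ∀ X Y, BlockRel i j a b X Y → f X = f Y)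
    (h2 : ∀ X Y, BlockRel i j b d X Y → f X = f Y)
    (h3 : ∀ X Y, BlockRel i j d a X Y → f X = f Y) :
    ∀ X Y, Block3Rel i j a b d X Y → f X = f Y := by
  intro X Y
  induction' hN : D X Y using Nat.strong_induction_on with N ih generalizing X
  intro hR
  by_cases hXY : X = Y
  · rw [hXY]
  · obtain ⟨i', j', a', b', hij', hab', e1, e2, ha, hb, hc, hlt⟩ := exists_step X Y hXY
    have hi' : (i' = i ∨ i' = j) ∧ (a' = a ∨ a' = b ∨ a' = d) := by
      by_contra hcon
      have := hR i' a' hcon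
      omega
    have hj' : (j' = i ∨ j' = j) ∧ (b' = a ∨ b' = b ∨ b' = d) := by
      by_contra hcon
      have := hR j' b' hcon
      omega
    have hrow : ∀ k, (k = i' ∨ k = j') → (k = i ∨ k = j) := by
      rintro k (rfl | rfl)
      · exact hi'.1
      · exact hj'.1
    have hcol : ∀ l, (l = a' ∨ l = b') → (l = a ∨ l = b ∨ l = d) := by
      rintro l (rfl | rfl)
      · exact hi'.2
      · exact hj'.2
    set Z := sw X i' j' a' b' hij' hab' e1 e2 with hZ
    have hmono : ∀ p q : Fin n, (∀ l, (l = a' ∨ l = b') → (l = p ∨ l = q)) →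
        BlockRel i j p q X Z := by
      intro p q hpq k l hnot
      exact (sw_of_not X i' j' a' b' hij' hab' e1 e2 k l
        (fun hh => hnot ⟨hrow k hh.1, hpq l hh.2⟩)).symm
    have hZY : Block3Rel i j a b d Z Y := by
      intro k l hnot
      rw [← hR k l hnot]
      exact sw_of_not X i' j' a' b' hij' hab' e1 e2 k l
        (fun hh => hnot ⟨hrow k hh.1, hcol l hh.2⟩)
    have hfXZ : f X = f Z := by
      rcases hi'.2 with rfl | rfl | rfl <;> rcases hj'.2 with rfl | rfl | rfl
      · exact absurd rfl hab'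
      · exact h1 X Z (hmono _ _ (fun l hl => hl))
      · exact h3 X Z (hmono _ _ (fun l hl => hl.symm))
      · exact h1 X Z (hmono _ _ (fun l hl => hl.symm))
      · exact absurd rfl hab'
      · exact h2 X Z (hmono _ _ (fun l hl => hl))
      · exact h3 X Z (hmono _ _ (fun l hl => hl))
      · exact h2 X Z (hmono _ _ (fun l hl => hl.symm))
      · exact absurd rfl hab'
    rw [hfXZ]
    exact ih (D Z Y) (by rw [← hN]; exact hlt) Z rfl hZY

end Vale.Agent.H69.CT
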